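import Vale.Agent.P201.Main

namespace Vale.Agent.Results.P201.Main

theorem result : ∃ (G : Type) (_ : Group G), (∀ g : G, IsOfFinOrder g → g = 1) ∧
    ∃ a b : MonoidAlgebra (ZMod 2) G, a ≠ 0 ∧ b ≠ 0 ∧ a * b = 0 :=
  Vale.Agent.P201.main

end Vale.Agent.Results.P201.Main
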